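import Mathlib

namespace Vale.Agent.Results.P061.LowerBoundFour

open Finset

/-- A finite loopless multigraph: `V` is the vertex type, `E` the type of edge copies,
and every edge copy has an unordered pair of distinct ends. -/
structure MultiG (V E : Type) where
  ends : E → Sym2 V
  loopless : ∀ e, ¬ (ends e).IsDiag

variable {V E : Type}

/-- The edge copy `e` has exactly one end in `S`. -/
def MultiG.Crosses (G : MultiG V E) (S : Finset V) (e : E) : Prop :=
  ∃ a b, G.ends e = s(a, b) ∧ a ∈ S ∧ b ∉ S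

open Classical in
/-- The number of edge copies of `F` with exactly one end in `S`. -/
noncomputable def MultiG.cut (G : MultiG V E) (F : Finset E) (S : Finset V) : ℕ :=
  (F.filter (fun e => G.Crosses S e)).card

/-- `k`-edge-connected: every nonempty proper vertex set is left by at least `k` edge copies. -/
def MultiG.EdgeConnected [Fintype V] [Fintype E] (G : MultiG V E) (k : ℕ) : Prop :=
  ∀ S : Finset V, S.Nonempty → S ≠ univ → k ≤ G.cut univ S

/-- The simple graph on `V` formed by the edge copies in `T`. -/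
def MultiG.span (G : MultiG V E) (T : Finset E) : SimpleGraph V :=
  SimpleGraph.fromEdgeSet (G.ends '' (T : Set E))

/-- `T` is a set of `n - 1` edge copies forming a tree on `V`. -/
def MultiG.IsSpanningTree [Fintype V] (G : MultiG V E) (T : Finset E) : Prop :=
  T.card + 1 = Fintype.card V ∧ (G.span T).IsTree

/-- `T` is `α`-thin. -/
def MultiG.IsThin [Fintype V] [Fintype E] (G : MultiG V E) (α : ℝ) (T : Finset E) : Prop :=
  ∀ S : Finset V, S.Nonempty → S ≠ univ → (G.cut T S : ℝ) ≤ α * (G.cut univ S : ℝ)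

/-- Every spanning tree has a cut crossed by all its edges. -/
lemma exists_full_cut [Fintype V] (G : MultiG V E) (T : Finset E)
    (hT : G.IsSpanningTree T) (hV : 2 ≤ Fintype.card V) :
    ∃ S : Finset V, S.Nonempty ∧ S ≠ univ ∧ G.cut T S = T.card := by
  classical
  obtain ⟨hcard, htree⟩ := hT
  obtain ⟨c⟩ := htree.colorable_two
  have hTne : T.Nonempty := by
    rw [← Finset.card_pos]; omega
  have key : ∀ e ∈ T, G.Crosses (univ.filter (fun v => c v = 0)) e := by
    intro e he
    induction hs : G.ends e using Sym2.ind with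
    | _ a b =>
      have hab : a ≠ b := by
        intro h
        apply G.loopless e
        rw [hs, h]
        exact Sym2.mk_isDiag_iff.mpr rfl
      have hadj : (G.span T).Adj a b := by
        rw [MultiG.span, SimpleGraph.fromEdgeSet_adj]
        exact ⟨⟨e, he, hs⟩, hab⟩
      have hc : c a ≠ c b := c.valid hadj
      by_cases h0 : c a = 0
      · refine ⟨a, b, hs, by simp [h0], ?_⟩
        simp only [mem_filter, mem_univ, true_and]
        intro hb; exact hc (h0.trans hb.symm)
      · refine ⟨b, a, by rw [hs, Sym2.eq_swap], ?_, by simp [h0]⟩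
        simp only [mem_filter, mem_univ, true_and]
        have : ∀ x y : Fin 2, x ≠ y → x ≠ 0 → y = 0 := by decide
        exact this _ _ hc h0
  obtain ⟨e, he⟩ := hTne
  obtain ⟨a, b, -, ha, hb⟩ := key e he
  refine ⟨univ.filter (fun v => c v = 0), ⟨a, ha⟩, ?_, ?_⟩
  · intro h; rw [h] at hb; exact hb (mem_univ b)
  · unfold MultiG.cut
    congr 1
    apply Finset.filter_true_of_mem
    exact key

/-- The complete graph on `Fin n`, seen as a multigraph (one copy of every pair). -/
def completeG (n : ℕ) : MultiG (Fin n) {e : Sym2 (Fin n) // ¬ e.IsDiag} where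
  ends := Subtype.val
  loopless := fun e => e.2

lemma completeG_cut (n : ℕ) (S : Finset (Fin n)) :
    (completeG n).cut univ S = S.card * (n - S.card) := by
  classical
  have h1 : (S ×ˢ Sᶜ).card = S.card * (n - S.card) := by
    rw [Finset.card_product, Finset.card_compl, Fintype.card_fin]
  rw [← h1]
  unfold MultiG.cut
  symm
  refine Finset.card_bij
    (fun p hp => (⟨s(p.1, p.2), ?_⟩ : {e : Sym2 (Fin n) // ¬ e.IsDiag})) ?_ ?_ ?_
  · rw [Finset.mem_product, Finset.mem_compl] at hp
    rw [Sym2.mk_isDiag_iff]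
    intro h
    exact hp.2 (h ▸ hp.1)
  · intro p hp
    rw [Finset.mem_product, Finset.mem_compl] at hp
    simp only [mem_filter, mem_univ, true_and]
    exact ⟨p.1, p.2, rfl, hp.1, hp.2⟩
  · intro p hp q hq h
    rw [Finset.mem_product, Finset.mem_compl] at hp hq
    have h' : s(p.1, p.2) = s(q.1, q.2) := congrArg Subtype.val h
    rw [Sym2.eq_iff] at h'
    rcases h' with ⟨h1, h2⟩ | ⟨h1, h2⟩
    · exact Prod.ext h1 h2
    · exact absurd (h2 ▸ hq.1) hp.2
  · intro e he
    simp only [mem_filter, mem_univ, true_and] at he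
    obtain ⟨a, b, hab, ha, hb⟩ := he
    refine ⟨(a, b), ?_, ?_⟩
    · rw [Finset.mem_product, Finset.mem_compl]; exact ⟨ha, hb⟩
    · apply Subtype.ext
      exact hab.symm

lemma card_bounds {n : ℕ} (S : Finset (Fin n)) (h1 : S.Nonempty) (h2 : S ≠ univ) :
    1 ≤ S.card ∧ S.card + 1 ≤ n := by
  constructor
  · exact Finset.card_pos.mpr h1
  · have : S.card < (univ : Finset (Fin n)).card :=
      Finset.card_lt_card (Finset.ssubset_univ_iff.mpr h2)
    rw [Finset.card_univ, Fintype.card_fin] at this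
    omega

lemma completeG_edgeConnected (k : ℕ) : (completeG (k + 1)).EdgeConnected k := by
  intro S h1 h2
  rw [completeG_cut]
  obtain ⟨ha, hb⟩ := card_bounds S h1 h2
  obtain ⟨t, ht⟩ : ∃ t, k + 1 - S.card = t + 1 := ⟨k - S.card, by omega⟩
  obtain ⟨s, hs⟩ : ∃ s, S.card = s + 1 := ⟨S.card - 1, by omega⟩
  rw [ht, hs]
  have : k = s + t + 1 := by omega
  nlinarith

lemma completeG_thin (k : ℕ) (hk : 1 ≤ k) (T : Finset {e : Sym2 (Fin (k + 1)) // ¬ e.IsDiag})
    (α : ℝ) (hT : (completeG (k + 1)).IsSpanningTree T) (hα : (completeG (k + 1)).IsThin α T) :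
    4 * (k : ℝ) / ((k : ℝ) + 1) ^ 2 ≤ α := by
  have hV : 2 ≤ Fintype.card (Fin (k + 1)) := by rw [Fintype.card_fin]; omega
  obtain ⟨S, h1, h2, h3⟩ := exists_full_cut _ T hT hV
  have hc : T.card = k := by
    have := hT.1
    rw [Fintype.card_fin] at this
    omega
  have h := hα S h1 h2
  rw [h3, hc, completeG_cut] at h
  obtain ⟨ha, hb⟩ := card_bounds S h1 h2
  have hsub : ((k + 1 - S.card : ℕ) : ℝ) = (k : ℝ) + 1 - (S.card : ℝ) := by
    rw [Nat.cast_sub (by omega)]; push_cast; ring
  rw [Nat.cast_mul, hsub] at h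
  set s : ℝ := (S.card : ℝ) with hs
  have hk' : (1 : ℝ) ≤ (k : ℝ) := by exact_mod_cast hk
  have hs1 : (1 : ℝ) ≤ s := by rw [hs]; exact_mod_cast ha
  have hs2 : s + 1 ≤ (k : ℝ) + 1 := by rw [hs]; exact_mod_cast hb
  have hpos : 0 < s * ((k : ℝ) + 1 - s) := by
    apply mul_pos <;> linarith
  have hαpos : 0 < α := by
    by_contra hneg
    replace hneg := not_lt.mp hneg
    have : α * (s * ((k : ℝ) + 1 - s)) ≤ 0 := mul_nonpos_of_nonpos_of_nonneg hneg hpos.le
    linarith
  have hmax : s * ((k : ℝ) + 1 - s) ≤ ((k : ℝ) + 1) ^ 2 / 4 := by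
    nlinarith [sq_nonneg (2 * s - ((k : ℝ) + 1))]
  have h4 : (k : ℝ) ≤ α * (((k : ℝ) + 1) ^ 2 / 4) :=
    h.trans (mul_le_mul_of_nonneg_left hmax hαpos.le)
  rw [div_le_iff₀ (by positivity)]
  linarith

/-- The strong thin tree conjecture with the constant `C`. -/
def StrongThinTree (C : ℝ) : Prop :=
  ∀ k : ℕ, 1 ≤ k → ∀ (V E : Type) [Fintype V] [Fintype E] (G : MultiG V E),
    2 ≤ Fintype.card V → G.EdgeConnected k →
      ∃ T : Finset E, G.IsSpanningTree T ∧ G.IsThin (C / (k : ℝ)) T

theorem result :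
    (∀ k : ℕ, 1 ≤ k → ∃ (E : Type) (_ : Fintype E) (G : MultiG (Fin (k + 1)) E),
      G.EdgeConnected k ∧ ∀ (T : Finset E) (α : ℝ), G.IsSpanningTree T → G.IsThin α T →
        4 * (k : ℝ) / ((k : ℝ) + 1) ^ 2 ≤ α) ∧
    (∀ C : ℝ, StrongThinTree C → 4 ≤ C) := by
  refine ⟨fun k hk => ⟨_, inferInstance, completeG (k + 1), completeG_edgeConnected k,
    fun T α hT hα => completeG_thin k hk T α hT hα⟩, ?_⟩
  intro C hC
  by_contra hlt
  replace hlt := not_le.mp hlt
  obtain ⟨m, hm⟩ := exists_nat_gt (8 / (4 - C))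
  have hpos : 0 < 4 - C := by linarith
  set k := m + 1 with hkdef
  have hk : 1 ≤ k := by omega
  obtain ⟨T, hT, hthin⟩ := hC k hk _ _ (completeG (k + 1))
    (by rw [Fintype.card_fin]; omega) (completeG_edgeConnected k)
  have h := completeG_thin k hk T _ hT hthin
  have hk0 : (0 : ℝ) < (k : ℝ) := by exact_mod_cast hk
  have hkm : (m : ℝ) + 1 = (k : ℝ) := by rw [hkdef]; push_cast; ring
  rw [div_le_div_iff₀ (by positivity) hk0] at h
  rw [div_lt_iff₀ hpos] at hm
  nlinarith

end Vale.Agent.Results.P061.LowerBoundFour
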